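import Mathlib

namespace Vale.Agent.H18.P034

open Finset

theorem choose_le_exp (N k : ℕ) {x : ℝ} (hx : 0 < x) :
    (N.choose k : ℝ) ≤ x⁻¹ ^ k * Real.exp (x * N) := by
  have h1 : (N.choose k : ℝ) * x ^ k ≤ (1 + x) ^ N := by
    rcases le_or_gt k N with h | h
    · have h2 : (1 + x) ^ N = ∑ m ∈ Finset.range (N + 1), x ^ m * (N.choose m : ℝ) := by
        rw [add_comm, add_pow]
        refine Finset.sum_congr rfl fun m _ => ?_
        simp
      rw [h2]
      have h3 := Finset.single_le_sum (f := fun m => x ^ m * (N.choose m : ℝ))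
        (s := Finset.range (N + 1)) (fun m _ => by positivity)
        (Finset.mem_range.2 (Nat.lt_succ_of_le h))
      linarith [h3, mul_comm (x ^ k) (N.choose k : ℝ)]
    · rw [Nat.choose_eq_zero_of_lt h]
      simp
      positivity
  have h2 : (1 + x) ^ N ≤ Real.exp (x * N) := by
    rw [mul_comm, Real.exp_nat_mul]
    exact pow_le_pow_left₀ (by positivity) (by linarith [Real.add_one_le_exp x]) N
  have h3 : (N.choose k : ℝ) = x⁻¹ ^ k * ((N.choose k : ℝ) * x ^ k) := by
    have : x⁻¹ ^ k * x ^ k = 1 := by rw [← mul_pow, inv_mul_cancel₀ hx.ne', one_pow]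
    calc (N.choose k : ℝ) = (N.choose k : ℝ) * (x⁻¹ ^ k * x ^ k) := by rw [this, mul_one]
      _ = _ := by ring
  rw [h3]
  exact mul_le_mul_of_nonneg_left (h1.trans h2) (by positivity)

/-- Termwise bound. -/
theorem term_bound {n : ℕ} (ε κ : Fin n → ℝ) (hε : ∀ i, 0 < ε i) (hκ : ∀ i, 0 < κ i)
    (k : Fin n → ℕ) (N : Fin n → ℕ)
    (hN : ∀ i, k i ≠ 0 → (N i : ℝ) * ε i ≤ ∑ j ∈ Finset.univ.filter (fun j => j ≤ i), (k j : ℝ)) :
    ∏ i, ((κ i)⁻¹ ^ (k i) * ((N i).choose (k i) : ℝ)) ≤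
      ∏ i : Fin n, (Real.exp 1 * 2 ^ ((i : ℕ) + 1) / (ε i * κ i)) ^ (k i) := by
  classical
  have h1 : ∀ i, (κ i)⁻¹ ^ (k i) * ((N i).choose (k i) : ℝ) ≤
      (2 ^ ((i : ℕ) + 1) / (ε i * κ i)) ^ (k i) *
        Real.exp ((1 / 2) ^ ((i : ℕ) + 1) *
          ∑ j ∈ Finset.univ.filter (fun j => j ≤ i), (k j : ℝ)) := by
    intro i
    have hs : 0 ≤ ∑ j ∈ Finset.univ.filter (fun j => j ≤ i), (k j : ℝ) :=
      Finset.sum_nonneg fun _ _ => Nat.cast_nonneg _
    rcases Nat.eq_zero_or_pos (k i) with h | h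
    · rw [h]
      simp only [pow_zero, Nat.choose_zero_right, Nat.cast_one, mul_one, one_mul]
      exact Real.one_le_exp (by positivity)
    · have hx : 0 < ε i * (1 / 2) ^ ((i : ℕ) + 1) := by have := hε i; positivity
      have h2 := choose_le_exp (N i) (k i) hx
      have h3 : ε i * (1 / 2) ^ ((i : ℕ) + 1) * (N i : ℝ) ≤ (1 / 2) ^ ((i : ℕ) + 1) *
          ∑ j ∈ Finset.univ.filter (fun j => j ≤ i), (k j : ℝ) := by
        have := hN i h.ne'
        calc ε i * (1 / 2) ^ ((i : ℕ) + 1) * (N i : ℝ) = (1 / 2) ^ ((i : ℕ) + 1) * ((N i : ℝ) * ε i) := by ring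
          _ ≤ _ := mul_le_mul_of_nonneg_left this (by positivity)
      have h4 : (κ i)⁻¹ ^ (k i) * (ε i * (1 / 2) ^ ((i : ℕ) + 1))⁻¹ ^ (k i) =
          (2 ^ ((i : ℕ) + 1) / (ε i * κ i)) ^ (k i) := by
        rw [← mul_pow]
        congr 1
        have := hε i
        have := hκ i
        have h2p : (2 : ℝ) ^ ((i : ℕ) + 1) ≠ 0 := by positivity
        rw [one_div, inv_pow]
        field_simp
      calc (κ i)⁻¹ ^ (k i) * ((N i).choose (k i) : ℝ)
          ≤ (κ i)⁻¹ ^ (k i) * ((ε i * (1 / 2) ^ ((i : ℕ) + 1))⁻¹ ^ (k i) *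
            Real.exp (ε i * (1 / 2) ^ ((i : ℕ) + 1) * (N i : ℝ))) :=
            mul_le_mul_of_nonneg_left h2 (by have := hκ i; positivity)
        _ = (2 ^ ((i : ℕ) + 1) / (ε i * κ i)) ^ (k i) *
            Real.exp (ε i * (1 / 2) ^ ((i : ℕ) + 1) * (N i : ℝ)) := by rw [← mul_assoc, h4]
        _ ≤ _ := by
            refine mul_le_mul_of_nonneg_left (Real.exp_le_exp.2 h3) ?_
            have := hε i
            have := hκ i
            positivity
  have h0 : ∀ i, 0 ≤ (κ i)⁻¹ ^ (k i) * ((N i).choose (k i) : ℝ) := by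
    intro i
    have := hκ i
    positivity
  refine (Finset.prod_le_prod (fun i _ => h0 i) (fun i _ => h1 i)).trans ?_
  rw [Finset.prod_mul_distrib, ← Real.exp_sum]
  have h5 : ∑ i : Fin n, (1 / 2 : ℝ) ^ ((i : ℕ) + 1) *
      ∑ j ∈ Finset.univ.filter (fun j => j ≤ i), (k j : ℝ) ≤ ∑ j : Fin n, (k j : ℝ) := by
    have h6 : ∀ i : Fin n, (1 / 2 : ℝ) ^ ((i : ℕ) + 1) *
        ∑ j ∈ Finset.univ.filter (fun j => j ≤ i), (k j : ℝ) ≤
        (1 / 2 : ℝ) ^ ((i : ℕ) + 1) * ∑ j : Fin n, (k j : ℝ) := by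
      intro i
      refine mul_le_mul_of_nonneg_left ?_ (by positivity)
      exact Finset.sum_le_sum_of_subset_of_nonneg (Finset.filter_subset _ _)
        (fun _ _ _ => Nat.cast_nonneg _)
    refine (Finset.sum_le_sum fun i _ => h6 i).trans ?_
    rw [← Finset.sum_mul]
    have h7 : ∑ i : Fin n, (1 / 2 : ℝ) ^ ((i : ℕ) + 1) ≤ 1 := by
      rw [Fin.sum_univ_eq_sum_range (fun i => (1 / 2 : ℝ) ^ (i + 1)) n]
      have h8 : ∀ m : ℕ, ∑ i ∈ Finset.range m, (1 / 2 : ℝ) ^ (i + 1) = 1 - (1 / 2) ^ m := by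
        intro m
        induction m with
        | zero => simp
        | succ m ih => rw [Finset.sum_range_succ, ih]; ring
      rw [h8]
      have : (0 : ℝ) ≤ (1 / 2) ^ n := by positivity
      linarith
    have h9 : 0 ≤ ∑ j : Fin n, (k j : ℝ) := Finset.sum_nonneg fun _ _ => Nat.cast_nonneg _
    nlinarith
  have h10 : ∏ i : Fin n, (Real.exp 1 * 2 ^ ((i : ℕ) + 1) / (ε i * κ i)) ^ (k i) =
      (∏ i : Fin n, (2 ^ ((i : ℕ) + 1) / (ε i * κ i)) ^ (k i)) * Real.exp (∑ j : Fin n, (k j : ℝ)) := by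
    rw [Real.exp_sum, ← Finset.prod_mul_distrib]
    refine Finset.prod_congr rfl fun i _ => ?_
    rw [mul_div_assoc, mul_pow, ← Real.exp_nat_mul, mul_one, mul_comm]
  rw [h10]
  refine mul_le_mul_of_nonneg_left (Real.exp_le_exp.2 h5) ?_
  refine Finset.prod_nonneg fun i _ => ?_
  have := hε i
  have := hκ i
  positivity

/-- Geometric sums over vectors. -/
theorem geom_vec {n : ℕ} (ρ : Fin n → ℝ) (h0 : ∀ i, 0 ≤ ρ i) (h1 : ∀ i, ρ i < 1) (D : ℕ) :
    ∑ k ∈ (Finset.univ : Finset (Fin n → Fin (D + 1))).erase (fun _ => 0),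
      ∏ i, ρ i ^ (k i : ℕ) ≤ ∏ i, (1 - ρ i)⁻¹ - 1 := by
  classical
  have h2 : ∑ k ∈ (Finset.univ : Finset (Fin n → Fin (D + 1))).erase (fun _ => 0),
      ∏ i, ρ i ^ (k i : ℕ) = ∑ k : Fin n → Fin (D + 1), ∏ i, ρ i ^ (k i : ℕ) - 1 := by
    rw [← Finset.sum_erase_add _ _ (Finset.mem_univ (fun _ : Fin n => (0 : Fin (D + 1))))]
    simp
  rw [h2]
  have h3 : ∑ k : Fin n → Fin (D + 1), ∏ i, ρ i ^ (k i : ℕ) =
      ∏ i, ∑ m : Fin (D + 1), ρ i ^ (m : ℕ) := by
    rw [Finset.prod_univ_sum]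
    simp [Fintype.piFinset_univ]
  rw [h3]
  have h4 : ∀ i, ∑ m : Fin (D + 1), ρ i ^ (m : ℕ) ≤ (1 - ρ i)⁻¹ := by
    intro i
    rw [Fin.sum_univ_eq_sum_range (fun m => ρ i ^ m) (D + 1)]
    have h5 := (hasSum_geometric_of_lt_one (h0 i) (h1 i))
    exact sum_le_hasSum _ (fun m _ => pow_nonneg (h0 i) m) h5
  have := Finset.prod_le_prod (s := Finset.univ)
    (fun i _ => Finset.sum_nonneg fun (m : Fin (D + 1)) _ => pow_nonneg (h0 i) (m : ℕ))
    (fun i _ => h4 i)
  linarith


/-- Row B: for a fixed new labelling `l'` the total weight of the fragments is small. -/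
theorem sum_frag_le {X : Type*} [Fintype X] [DecidableEq X] {n : ℕ} (l' : X → Fin n)
    (U : Finset (Finset X)) (hc : (Fin n → ℕ) → Fin n → Finset X) (ε κ p : Fin n → ℝ) (q : ℝ)
    (hq : 0 < q) (hε : ∀ i, 0 < ε i) (hκ : ∀ i, 0 < κ i)
    (hU0 : ∀ T ∈ U, T.Nonempty)
    (hU1 : ∀ T ∈ U, ∀ i, (T.filter (fun x => l' x = i)).Nonempty →
      T.filter (fun x => l' x = i) ⊆ hc (fun j => (T.filter (fun x => l' x = j)).card) i ∧
      ((hc (fun j => (T.filter (fun x => l' x = j)).card) i).card : ℝ) * ε i ≤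
        ∑ j ∈ Finset.univ.filter (fun j => j ≤ i), ((T.filter (fun x => l' x = j)).card : ℝ))
    (hp : ∀ T ∈ U, ∀ x ∈ T, p (l' x) = κ (l' x) * q)
    (hρ : ∀ i : Fin n, Real.exp 1 * 2 ^ ((i : ℕ) + 1) / (ε i * κ i) < 1) :
    ∑ T ∈ U, ∏ x ∈ T, q / p (l' x) ≤
      ∏ i : Fin n, (1 - Real.exp 1 * 2 ^ ((i : ℕ) + 1) / (ε i * κ i))⁻¹ - 1 := by
  classical
  set ρ : Fin n → ℝ := fun i => Real.exp 1 * 2 ^ ((i : ℕ) + 1) / (ε i * κ i) with hρdef
  have hρ0 : ∀ i, 0 ≤ ρ i := by
    intro i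
    have := hε i
    have := hκ i
    simp only [hρdef]
    positivity
  -- the count vector
  set kv : Finset X → Fin n → ℕ := fun T j => (T.filter (fun x => l' x = j)).card with hkv
  have hkle : ∀ T j, kv T j ≤ Fintype.card X := by
    intro T j
    exact Finset.card_le_univ _
  have hcl : ∀ T : Finset X, ∀ j, kv T j < Fintype.card X + 1 := fun T j =>
    Nat.lt_succ_of_le (hkle T j)
  set kf : Finset X → (Fin n → Fin (Fintype.card X + 1)) := fun T j => ⟨kv T j, hcl T j⟩ with hkf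
  -- weight of T
  have hw : ∀ T ∈ U, ∏ x ∈ T, q / p (l' x) = ∏ i, (κ i)⁻¹ ^ (kv T i) := by
    intro T hT
    have h1 : ∏ x ∈ T, q / p (l' x) = ∏ x ∈ T, (κ (l' x))⁻¹ := by
      refine Finset.prod_congr rfl fun x hx => ?_
      rw [hp T hT x hx]
      have := hκ (l' x)
      field_simp
    rw [h1]
    rw [← Finset.prod_fiberwise_of_maps_to (s := T) (t := Finset.univ) (g := l')
      (fun _ _ => Finset.mem_univ _)]
    refine Finset.prod_congr rfl fun i _ => ?_
    rw [Finset.prod_congr rfl (g := fun _ => (κ i)⁻¹)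
      (fun x hx => by rw [(Finset.mem_filter.1 hx).2]), Finset.prod_const]
  rw [Finset.sum_congr rfl hw]
  have hmaps : ∀ T ∈ U, kf T ∈ (Finset.univ : Finset (Fin n → Fin (Fintype.card X + 1))).erase
      (fun _ => 0) := by
    intro T hT
    refine Finset.mem_erase.2 ⟨?_, Finset.mem_univ _⟩
    intro h
    obtain ⟨x, hx⟩ := hU0 T hT
    have h1 := congrFun h (l' x)
    have h2 : kv T (l' x) = 0 := by
      have := congrArg Fin.val h1
      simpa [hkf] using this
    simp only [hkv, Finset.card_eq_zero] at h2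
    have : x ∈ T.filter (fun y => l' y = l' x) := Finset.mem_filter.2 ⟨hx, rfl⟩
    rw [h2] at this
    simp at this
  rw [← Finset.sum_fiberwise_of_maps_to hmaps]
  refine le_trans (Finset.sum_le_sum fun k hk => ?_) (geom_vec ρ hρ0 hρ (Fintype.card X))
  -- fixed k
  set kk : Fin n → ℕ := fun i => (k i : ℕ) with hkk
  have hkvk : ∀ T ∈ U.filter (fun T => kf T = k), kv T = kk := by
    intro T hT
    have := (Finset.mem_filter.1 hT).2
    funext i
    rw [hkk, ← this]
  have h1 : ∑ T ∈ U.filter (fun T => kf T = k), ∏ i, (κ i)⁻¹ ^ (kv T i) =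
      ((U.filter (fun T => kf T = k)).card : ℝ) * ∏ i, (κ i)⁻¹ ^ (kk i) := by
    rw [Finset.sum_congr rfl (g := fun _ => ∏ i, (κ i)⁻¹ ^ (kk i))
      (fun T hT => by rw [hkvk T hT]), Finset.sum_const, nsmul_eq_mul]
  rw [h1]
  rcases Finset.eq_empty_or_nonempty (U.filter (fun T => kf T = k)) with he | ⟨T0, hT0⟩
  · rw [he]
    simp only [Finset.card_empty, Nat.cast_zero, zero_mul]
    exact Finset.prod_nonneg fun i _ => pow_nonneg (hρ0 i) _
  · have hcard : (U.filter (fun T => kf T = k)).card ≤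
        ∏ i, ((hc kk i).card).choose (kk i) := by
      have h2 : (Fintype.piFinset fun i =>
          if kk i = 0 then {∅} else Finset.powersetCard (kk i) (hc kk i)).card ≤
          ∏ i, ((hc kk i).card).choose (kk i) := by
        rw [Fintype.card_piFinset]
        refine Finset.prod_le_prod' fun i _ => ?_
        by_cases h : kk i = 0
        · simp [h]
        · simp [h, Finset.card_powersetCard]
      refine le_trans ?_ h2
      refine Finset.card_le_card_of_injOn (fun T i => T.filter (fun x => l' x = i)) ?_ ?_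
      · intro T hT
        have hT' : T ∈ U.filter (fun T => kf T = k) := hT
        have hk' := hkvk T hT'
        simp only [Finset.mem_coe, Fintype.mem_piFinset]
        intro i
        by_cases h : kk i = 0
        · simp only [h, if_true, Finset.mem_singleton]
          rw [← Finset.card_eq_zero]
          have := congrFun hk' i
          rw [h] at this
          exact this
        · simp only [h, if_false, Finset.mem_powersetCard]
          have hcardT : (T.filter (fun x => l' x = i)).card = kk i := congrFun hk' i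
          refine ⟨?_, hcardT⟩
          have hne : (T.filter (fun x => l' x = i)).Nonempty := by
            rw [← Finset.card_pos, hcardT]
            omega
          have h3 := (hU1 T (Finset.mem_filter.1 hT').1 i hne).1
          have h4 : (fun j => (T.filter (fun x => l' x = j)).card) = kk := hk'
          rwa [h4] at h3
      · intro T hT T' hT' h
        ext x
        have h3 := congrFun h (l' x)
        simp only at h3
        have h4 : x ∈ T.filter (fun y => l' y = l' x) ↔ x ∈ T'.filter (fun y => l' y = l' x) := by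
          rw [h3]
        simpa using h4
    have hT0' := hkvk T0 hT0
    have hN : ∀ i, kk i ≠ 0 → (((hc kk i).card : ℕ) : ℝ) * ε i ≤
        ∑ j ∈ Finset.univ.filter (fun j => j ≤ i), (kk j : ℝ) := by
      intro i hi
      have hcardT : (T0.filter (fun x => l' x = i)).card = kk i := congrFun hT0' i
      have hne : (T0.filter (fun x => l' x = i)).Nonempty := by
        rw [← Finset.card_pos, hcardT]
        omega
      have h3 := (hU1 T0 (Finset.mem_filter.1 hT0).1 i hne).2
      have h4 : (fun j => (T0.filter (fun x => l' x = j)).card) = kk := hT0'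
      rw [h4] at h3
      have h5 : ∀ j, ((T0.filter (fun x => l' x = j)).card : ℝ) = (kk j : ℝ) := by
        intro j
        have : (T0.filter (fun x => l' x = j)).card = kk j := congrFun hT0' j
        rw [this]
      simpa only [h5] using h3
    have h5 := term_bound ε κ hε hκ kk (fun i => (hc kk i).card) hN
    have h6 : 0 ≤ ∏ i, (κ i)⁻¹ ^ (kk i) := by
      refine Finset.prod_nonneg fun i _ => ?_
      have := hκ i
      positivity
    calc ((U.filter (fun T => kf T = k)).card : ℝ) * ∏ i, (κ i)⁻¹ ^ (kk i)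
        ≤ ((∏ i, ((hc kk i).card).choose (kk i) : ℕ) : ℝ) * ∏ i, (κ i)⁻¹ ^ (kk i) :=
          mul_le_mul_of_nonneg_right (by exact_mod_cast hcard) h6
      _ = ∏ i, ((κ i)⁻¹ ^ (kk i) * (((hc kk i).card).choose (kk i) : ℝ)) := by
          rw [Finset.prod_mul_distrib, Nat.cast_prod, mul_comm]
      _ ≤ _ := h5

end Vale.Agent.H18.P034
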